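import Vale.Agent.Lib.P154.Neg.LP.B4835.D

/-!
Part of the computations of a certificate for a restricted range of `theta`.
-/

namespace Vale.Agent.Lib.P154.Neg.B4835

open Vale.Agent.Lib.P154.Neg.Kron Vale.Agent.Lib.P154.Neg Vale.Agent.Lib.P154.Neg.Cst

theorem ctQ3_16 : checkTree 4 (eQ3t C) btQ3_15l tQ3_16 = true := by decide +kernel

theorem ctQ3_18 : checkTree 4 (eQ3t C) btQ3_17l tQ3_18 = true := by decide +kernel

theorem ctQ3_19 : checkTree 4 (eQ3t C) btQ3_17r tQ3_19 = true := by decide +kernel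

end Vale.Agent.Lib.P154.Neg.B4835
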